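import Vale.Agent.P331.Defs
import Vale.Agent.P331.Bound
import Vale.Agent.P331.RuleMeas

/-!
# One sample against the almighty adversary: ratio of order `1 / log (rank / girth)`

For a finite matroid `M` on `Fin n` of rank `r`, and `2 ≤ g ≤ r + 1` such that every set of fewer
than `g` non-loop elements is independent, there is an online rule using one sample per element
(plus a seed whose law does not depend on the laws of the values) which keeps its accepted set
independent and is `1 / (16 (3 + log (r / g)))`-competitive against every adversary choosing the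
arrival order as an arbitrary function of the samples, the values, the seed and the laws.

`g = 2` is allowed for every matroid of rank at least one, so the ratio is of order `1 / log r`
in general; for paving matroids (`g = r`) and uniform matroids it is an absolute constant.
-/

open MeasureTheory
open scoped ENNReal NNReal

namespace Vale.Agent.Results.P331.LogRankAlmighty

open Vale.Agent.P331

theorem result {n : ℕ} (M : Matroid (Fin n)) (r g : ℕ) (hr : M.eRank = r) (hg2 : 2 ≤ g)
    (hgr : g ≤ r + 1)
    (hgirth : ∀ I : Finset (Fin n), I.card < g → (∀ e ∈ I, M.Indep ({e} : Set (Fin n))) →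
      M.Indep (I : Set (Fin n))) :
    ∃ (Ω : Type) (_ : MeasurableSpace Ω) (σ : Measure Ω) (_ : IsProbabilityMeasure σ)
      (ρ : OnlineRule n Ω),
      (∀ (es : List (Fin n)) (e : Fin n),
        Measurable fun x : (Fin n → ℝ≥0) × Ω × (Fin n → ℝ≥0) × ℝ≥0 =>
          ρ x.1 x.2.1 (es.map fun f => (f, x.2.2.1 f)) e x.2.2.2) ∧
      (∀ (S : Fin n → ℝ≥0) (R : Ω) (V : Fin n → ℝ≥0) (π : Equiv.Perm (Fin n)),
        M.Indep (accepted ρ S R V π : Set (Fin n))) ∧
      ∀ (D : Fin n → Measure ℝ≥0) [∀ e, IsProbabilityMeasure (D e)]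
        (adv : (Fin n → ℝ≥0) → (Fin n → ℝ≥0) → Ω → Equiv.Perm (Fin n)),
        ENNReal.ofReal (1 / (16 * (3 + Real.log ((r : ℝ) / g)))) *
            ∫⁻ V, (optM M V : ℝ≥0∞) ∂(Measure.pi D) ≤
          ∫⁻ x, ∑ e ∈ accepted ρ x.1.1 x.2 x.1.2 (adv x.1.1 x.1.2 x.2), (x.1.2 e : ℝ≥0∞)
            ∂(((Measure.pi D).prod (Measure.pi D)).prod σ) := by
  classical
  set K0 := max 1 (g / 4) with hK0def
  have hK0 : 1 ≤ K0 := le_max_left _ _
  have hcase : K0 = 1 ∨ 4 * K0 ≤ g := by
    rcases le_total 1 (g / 4) with h | h
    · right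
      rw [hK0def, max_eq_right h]
      omega
    · left
      rw [hK0def, max_eq_left h]
  have hrI : ∀ I : Finset (Fin n), M.Indep (I : Set (Fin n)) → I.card ≤ r := by
    intro I hI
    have h := hI.encard_le_eRank
    rw [hr, Set.encard_coe_eq_coe_finsetCard] at h
    exact_mod_cast h
  refine ⟨Seed n, inferInstance, seedMeasure n K0 r, seedMeasure_prob hK0, theRule M K0, ?_, ?_, ?_⟩
  · exact fun es e => theRule_measurable M K0 es e
  · exact fun S R V π => accepted_indep M K0 S V R π
  · intro D _ adv
    refine le_trans ?_ (main_ineq M hK0 hg2 hgirth hcase hrI D adv)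
    gcongr
    exact const_le hg2 hgr

end Vale.Agent.Results.P331.LogRankAlmighty
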